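import Vale.Agent.P199.Final

/-- A counterexample to the Kurosh problem for division rings: a division ring `D` that is
algebraic over its center `F`, is generated by two elements as an `F`-algebra, and has infinite
dimension over `F`. -/
theorem Vale.Agent.Results.P199.Kurosh.result :
    ∃ (D : Type) (_ : DivisionRing D),
      Algebra.IsAlgebraic (Subring.center D) D ∧
        ∃ x y : D, Algebra.adjoin (Subring.center D) {x, y} = ⊤ ∧
          ¬ Module.Finite (Subring.center D) D :=
  Vale.Agent.P199.kurosh_counterexample
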